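import Vale.Agent.Lib.P062.Sound

/-!
# P062: the first move and the final assembly
-/

namespace Vale.Agent.P062

/-! ## Symmetries of the board -/

theorem signedPerm_comp (a b a' b' : ℤˣ) (sw sw' : Bool) : ∃ (a'' b'' : ℤˣ) (sw'' : Bool),
    ∀ p, signedPerm a' b' sw' (signedPerm a b sw p) = signedPerm a'' b'' sw'' p := by
  cases sw' <;> cases sw
  · exact ⟨a' * a, b' * b, false, fun p => by simp [signedPerm, mul_assoc]⟩
  · exact ⟨a' * a, b' * b, true, fun p => by simp [signedPerm, mul_assoc]⟩
  · exact ⟨a' * b, b' * a, true, fun p => by simp [signedPerm, mul_assoc]⟩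
  · exact ⟨a' * b, b' * a, false, fun p => by simp [signedPerm, mul_assoc]⟩

theorem signedPerm_add (a b : ℤˣ) (sw : Bool) (p q : Cell) :
    signedPerm a b sw (p + q) = signedPerm a b sw p + signedPerm a b sw q := by
  cases sw <;> simp [signedPerm, mul_add]

/-- the parameters of the inverse -/
def invPar (a b : ℤˣ) (sw : Bool) : ℤˣ × ℤˣ := if sw then (b, a) else (a, b)

theorem unit_mul_self (a : ℤˣ) : (a : ℤ) * a = 1 := by
  rcases Int.units_eq_one_or a with rfl | rfl <;> norm_num

theorem signedPerm_inv (a b : ℤˣ) (sw : Bool) (p : Cell) :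
    signedPerm (invPar a b sw).1 (invPar a b sw).2 sw (signedPerm a b sw p) = p := by
  cases sw
  · ext <;> simp [signedPerm, invPar, ← mul_assoc, unit_mul_self]
  · ext <;> simp [signedPerm, invPar, ← mul_assoc, unit_mul_self]

theorem signedPerm_inv' (a b : ℤˣ) (sw : Bool) (p : Cell) :
    signedPerm a b sw (signedPerm (invPar a b sw).1 (invPar a b sw).2 sw p) = p := by
  cases sw
  · ext <;> simp [signedPerm, invPar, ← mul_assoc, unit_mul_self]
  · ext <;> simp [signedPerm, invPar, ← mul_assoc, unit_mul_self]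

/-- the symmetry `p ↦ o + R (p - o)` -/
def symE (o : Cell) (a b : ℤˣ) (sw : Bool) : Cell ≃ Cell where
  toFun p := o + signedPerm a b sw (p - o)
  invFun p := o + signedPerm (invPar a b sw).1 (invPar a b sw).2 sw (p - o)
  left_inv p := by
    simp only [add_sub_cancel_left]
    rw [signedPerm_inv]
    abel
  right_inv p := by
    simp only [add_sub_cancel_left]
    rw [signedPerm_inv']
    abel

theorem isSym_aux (u : Cell) (a' b' : ℤˣ) (sw' : Bool) (o : Cell) (C : Finset Cell)
    (hC : IsCopy C) : IsCopy (C.image fun p => u + signedPerm a' b' sw' (p - o)) := by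
  obtain ⟨t, a, b, sw, rfl⟩ := hC
  obtain ⟨a'', b'', sw'', h⟩ := signedPerm_comp a b a' b' sw sw'
  refine ⟨u + signedPerm a' b' sw' (t - o), a'', b'', sw'', ?_⟩
  rw [Finset.image_image]
  apply Finset.image_congr
  intro p _
  simp only [Function.comp_apply]
  rw [show t + signedPerm a b sw p - o = (t - o) + signedPerm a b sw p by abel,
    signedPerm_add, h, add_assoc]

theorem isSym_symE_symm (o : Cell) (a b : ℤˣ) (sw : Bool) : IsSym (symE o a b sw).symm := by
  intro C hC
  exact isSym_aux o _ _ sw o C hC

/-! ## The first move -/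

/-- Maker's first cell -/
def org : Cell := (8, 8)

theorem WinsIn.of_fact {m z : ℕ} (h : F m z) (hm : ∀ c ∈ cs m, c = org) :
    ∃ n, ∀ (a b : ℤˣ) (sw : Bool) (x : Cell), x ≠ org → symE org a b sw x ∉ cs z →
      WinsIn n {org} {x} := by
  obtain ⟨n, h⟩ := h
  refine ⟨n, fun a b sw x hx hz => ?_⟩
  have horg : symE org a b sw org = org := by
    show org + signedPerm a b sw (org - org) = org
    cases sw <;> simp [signedPerm, sub_self]
  have h1 := h {org} {symE org a b sw x}
    (fun c hc => Finset.mem_singleton.2 (hm c hc))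
    (by
      rw [Finset.disjoint_singleton]
      intro he
      apply hx
      apply (symE org a b sw).injective
      rw [← he, horg])
    (by
      intro c hc hc'
      rw [Finset.mem_singleton] at hc'
      exact hz (hc' ▸ hc))
  have h2 := h1.image (isSym_symE_symm org a b sw)
  rw [Finset.image_singleton, Finset.image_singleton, Equiv.symm_apply_apply] at h2
  have h3 : (symE org a b sw).symm org = org := by
    rw [Equiv.symm_apply_eq, horg]
  rwa [h3] at h2

/-! ## The final check -/

/-- mask of the first cell -/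
def orgMask : ℕ := 2 ^ 264

/-- mask of the window `[0, 16) × [0, 16)` -/
def winMask : ℕ := (2 ^ 16 - 1) * ((2 ^ 512 - 1) / (2 ^ 32 - 1))

/-- the eight images of the cell `(x, y)`, `0 ≤ x, y < 16`, under the symmetries fixing `(8, 8)` -/
def missSym (z x y : ℕ) : Bool :=
  !z.testBit (x + 32 * y) || !z.testBit (x + 32 * (16 - y)) ||
  !z.testBit ((16 - x) + 32 * y) || !z.testBit ((16 - x) + 32 * (16 - y)) ||
  !z.testBit (y + 32 * x) || !z.testBit (y + 32 * (16 - x)) ||
  !z.testBit ((16 - y) + 32 * x) || !z.testBit ((16 - y) + 32 * (16 - x))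

/-- some fact of the list works for the reply `(x, y)` -/
def memAny (p : ℕ → Bool) : Mem → Bool
  | Mem.nil => false
  | Mem.cons _ z t => p z || memAny p t

/-- all facts are about the first cell and the window -/
def memWin : Mem → Bool
  | Mem.nil => true
  | Mem.cons m z t => (m ||| orgMask == orgMask) && (z &&& winMask == z) && memWin t

/-- the final check -/
def finalCheck (roots : Mem) : Bool :=
  memWin roots && (List.range 16).all fun x => (List.range 16).all fun y =>
    (x == 8 && y == 8) || memAny (fun z => missSym z x y) roots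

theorem win_bits : ∀ i, winMask.testBit i = true → i % 32 < 16 ∧ i / 32 < 16 := by
  intro i hi
  by_cases h : i < 512
  · have h1 : ∀ i < 512, winMask.testBit i = true → i % 32 < 16 := by decide +kernel
    exact ⟨h1 i h hi, by omega⟩
  · exfalso
    have h2 : winMask < 2 ^ i := by
      calc winMask < 2 ^ 512 := by decide +kernel
        _ ≤ 2 ^ i := Nat.pow_le_pow_right (by norm_num) (by omega)
    rw [Nat.testBit_lt_two_pow h2] at hi
    exact absurd hi (by simp)

theorem cellOf_xy {x y : ℕ} (hx : x < 32) : cellOf (x + 32 * y) = ((x : ℤ), (y : ℤ)) := by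
  unfold cellOf
  have e1 : (x + 32 * y) % 32 = x := by omega
  have e2 : (x + 32 * y) / 32 = y := by omega
  rw [e1, e2]

theorem notMem_cs {z x y : ℕ} (hx : x < 32) (h : z.testBit (x + 32 * y) = false) {c : Cell}
    (hc : c = ((x : ℤ), (y : ℤ))) : c ∉ cs z := by
  rw [hc, ← cellOf_xy hx, mem_cs, h]
  simp

theorem missSym_sound {z x y : ℕ} (hx : x < 16) (hy : y < 16) (h : missSym z x y = true) :
    ∃ (a b : ℤˣ) (sw : Bool), symE org a b sw ((x : ℤ), (y : ℤ)) ∉ cs z := by
  unfold missSym at h
  simp only [Bool.or_eq_true, Bool.not_eq_true'] at h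
  rcases h with ((((((h | h) | h) | h) | h) | h) | h) | h
  · exact ⟨1, 1, false, notMem_cs (by omega) h (by simp [symE, org, signedPerm])⟩
  · refine ⟨1, -1, false, notMem_cs (by omega) h ?_⟩
    simp only [symE, org, signedPerm, Equiv.coe_fn_mk]
    push_cast [Nat.cast_sub (show y ≤ 16 by omega)]
    ext <;> simp <;> ring
  · refine ⟨-1, 1, false, notMem_cs (by omega) h ?_⟩
    simp only [symE, org, signedPerm, Equiv.coe_fn_mk]
    push_cast [Nat.cast_sub (show x ≤ 16 by omega)]
    ext <;> simp <;> ring
  · refine ⟨-1, -1, false, notMem_cs (by omega) h ?_⟩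
    simp only [symE, org, signedPerm, Equiv.coe_fn_mk]
    push_cast [Nat.cast_sub (show x ≤ 16 by omega), Nat.cast_sub (show y ≤ 16 by omega)]
    ext <;> simp <;> ring
  · exact ⟨1, 1, true, notMem_cs (by omega) h (by simp [symE, org, signedPerm])⟩
  · refine ⟨1, -1, true, notMem_cs (by omega) h ?_⟩
    simp only [symE, org, signedPerm, Equiv.coe_fn_mk]
    push_cast [Nat.cast_sub (show x ≤ 16 by omega)]
    ext <;> simp <;> ring
  · refine ⟨-1, 1, true, notMem_cs (by omega) h ?_⟩
    simp only [symE, org, signedPerm, Equiv.coe_fn_mk]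
    push_cast [Nat.cast_sub (show y ≤ 16 by omega)]
    ext <;> simp <;> ring
  · refine ⟨-1, -1, true, notMem_cs (by omega) h ?_⟩
    simp only [symE, org, signedPerm, Equiv.coe_fn_mk]
    push_cast [Nat.cast_sub (show x ≤ 16 by omega), Nat.cast_sub (show y ≤ 16 by omega)]
    ext <;> simp <;> ring

theorem roots_sound : ∀ (roots : Mem), MemOK roots → memWin roots = true →
    ∃ n, ∀ c : Cell, c ≠ org →
      (((c.1 < 0 ∨ 16 ≤ c.1 ∨ c.2 < 0 ∨ 16 ≤ c.2) ∧ roots ≠ Mem.nil) ∨
        ∃ x y : ℕ, x < 16 ∧ y < 16 ∧ c = ((x : ℤ), (y : ℤ)) ∧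
          memAny (fun z => missSym z x y) roots = true) →
      WinsIn n {org} {c} := by
  intro roots
  induction roots with
  | nil =>
    intro _ _
    refine ⟨0, fun c _ h => ?_⟩
    rcases h with ⟨_, h⟩ | ⟨x, y, _, _, _, h⟩
    · exact absurd rfl h
    · exact absurd h (by simp [memAny])
  | cons m z t ih =>
    intro hOK hw
    simp only [memWin, Bool.and_eq_true, beq_iff_eq] at hw
    obtain ⟨⟨hm, hz⟩, ht⟩ := hw
    obtain ⟨n1, h1⟩ := ih hOK.2 ht
    have hmorg : ∀ c ∈ cs m, c = org := by
      rintro c ⟨i, hi, rfl⟩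
      have h2 : (m ||| orgMask).testBit i = true := by
        rw [Nat.testBit_or, hi]; rfl
      rw [hm, orgMask, Nat.testBit_two_pow, decide_eq_true_eq] at h2
      rw [← h2]
      simp [cellOf, org]
    obtain ⟨n2, h2⟩ := WinsIn.of_fact hOK.1 hmorg
    refine ⟨max n1 n2, fun c hc h => ?_⟩
    rcases h with ⟨hout, _⟩ | ⟨x, y, hx, hy, hcxy, hany⟩
    · apply (h2 1 1 false c hc ?_).mono (le_max_right _ _)
      have e : symE org 1 1 false c = c := by
        simp [symE, org, signedPerm]
      rw [e]
      rintro ⟨i, hi, rfl⟩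
      have h3 : winMask.testBit i = true := by
        have : (z &&& winMask).testBit i = true := by rw [hz]; exact hi
        rw [Nat.testBit_and, Bool.and_eq_true] at this
        exact this.2
      have h4 := win_bits i h3
      simp only [cellOf] at hout
      omega
    · simp only [memAny, Bool.or_eq_true] at hany
      rcases hany with hany | hany
      · obtain ⟨a, b, sw, h3⟩ := missSym_sound hx hy hany
        exact (h2 a b sw c hc (hcxy ▸ h3)).mono (le_max_right _ _)
      · exact (h1 c hc (Or.inr ⟨x, y, hx, hy, hcxy, hany⟩)).mono (le_max_left _ _)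

/-- A list of valid root facts that passes the final check gives a winning strategy. -/
theorem final_sound {roots : Mem} (h : MemOK roots) (hc : finalCheck roots = true) :
    ∃ σ : List Cell → Cell, IsWinningStrategy σ := by
  simp only [finalCheck, Bool.and_eq_true, List.all_eq_true, List.mem_range, Bool.or_eq_true,
    beq_iff_eq] at hc
  obtain ⟨hw, hc⟩ := hc
  obtain ⟨n, hn⟩ := roots_sound roots h hw
  have hne : roots ≠ Mem.nil := by
    rintro rfl
    rcases hc 0 (by norm_num) 0 (by norm_num) with h | h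
    · omega
    · exact absurd h (by simp [memAny])
  apply exists_strategy (n := n + 1)
  refine Or.inr ⟨org, Finset.notMem_empty _, Finset.notMem_empty _, fun b hb _ => ?_⟩
  have hb' : b ≠ org := by
    rintro rfl
    exact hb (Finset.mem_insert_self _ _)
  apply hn b hb'
  by_cases hin : b.1 < 0 ∨ 16 ≤ b.1 ∨ b.2 < 0 ∨ 16 ≤ b.2
  · exact Or.inl ⟨hin, hne⟩
  · right
    push Not at hin
    obtain ⟨h1, h2, h3, h4⟩ := hin
    refine ⟨b.1.toNat, b.2.toNat, by omega, by omega, ?_, ?_⟩
    · ext <;> simp <;> omega
    · rcases hc b.1.toNat (by omega) b.2.toNat (by omega) with h5 | h5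
      · exfalso
        apply hb'
        ext <;> simp [org] <;> omega
      · exact h5

end Vale.Agent.P062
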