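import Mathlib

/-!
# The Snaky achievement game in the plane: definitions
-/

namespace Vale.Agent.P062

/-- Cells of the square grid, indexed by their lower-left corner. -/
abbrev Cell := ℤ × ℤ

/-- The hexomino Snaky. -/
def snaky : Finset Cell := {(0, 0), (1, 0), (2, 0), (3, 0), (3, 1), (4, 1)}

/-- The eight signed permutation matrices, acting on the plane: an optional swap of the two
coordinates, followed by the signs `a` and `b`. -/
def signedPerm (a b : ℤˣ) (sw : Bool) (p : Cell) : Cell :=
  if sw then ((a : ℤ) * p.2, (b : ℤ) * p.1) else ((a : ℤ) * p.1, (b : ℤ) * p.2)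

/-- The allowed copies `t + R(S)` of Snaky. -/
def IsCopy (C : Finset Cell) : Prop :=
  ∃ (t : Cell) (a b : ℤˣ) (sw : Bool), C = snaky.image fun p => t + signedPerm a b sw p

/-- The `n`-th move of Maker (`n = 0, 1, 2, …`), when Maker follows the strategy `σ` and Breaker
plays `b 0, b 1, b 2, …`: the strategy sees the list of Breaker's first `n` moves.  The moves are
made in the order `makerMove σ b 0`, `b 0`, `makerMove σ b 1`, `b 1`, …. -/
def makerMove (σ : List Cell → Cell) (b : ℕ → Cell) (n : ℕ) : Cell := σ ((List.range n).map b)

/-- The cells claimed by Maker with its first `n` moves. -/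
def makerCells (σ : List Cell → Cell) (b : ℕ → Cell) (n : ℕ) : Finset Cell :=
  (Finset.range n).image (makerMove σ b)

/-- The cells claimed by Breaker with its first `n` moves. -/
def breakerCells (b : ℕ → Cell) (n : ℕ) : Finset Cell := (Finset.range n).image b

/-- `σ` is a winning strategy for Maker, who moves first on the empty board: against every
sequence `b` of Breaker moves that are all legal (each claims an unclaimed cell), for some `n` the
first `n` moves of Maker are legal and the cells they claim contain an allowed copy of Snaky. -/
def IsWinningStrategy (σ : List Cell → Cell) : Prop :=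
  ∀ b : ℕ → Cell, (∀ k, b k ∉ makerCells σ b (k + 1) ∧ b k ∉ breakerCells b k) →
    ∃ n, (∀ k < n, makerMove σ b k ∉ makerCells σ b k ∧ makerMove σ b k ∉ breakerCells b k) ∧
      ∃ C, IsCopy C ∧ C ⊆ makerCells σ b n

end Vale.Agent.P062
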