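import Vale.Agent.Lib.P062.Final

/-!
# P062: strategies against a restricted set of first replies
-/

namespace Vale.Agent.P062

/-- Maker's strategy: first `x₀`, then a win from the position `({x₀}, {c})`. -/
noncomputable def stratFrom (n : ℕ) (x₀ : Cell) : List Cell → Cell
  | [] => x₀
  | (c :: l) => strat n {x₀} {c} l

theorem exists_partial {n : ℕ} {x₀ : Cell} {R : Cell → Prop}
    (h : ∀ c, c ≠ x₀ → R c → WinsIn n {x₀} {c}) :
    ∃ σ : List Cell → Cell, σ [] = x₀ ∧ ∀ b : ℕ → Cell,
      (∀ k, b k ∉ makerCells σ b (k + 1) ∧ b k ∉ breakerCells b k) → R (b 0) →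
      ∃ n, (∀ k < n, makerMove σ b k ∉ makerCells σ b k ∧ makerMove σ b k ∉ breakerCells b k) ∧
        ∃ C, IsCopy C ∧ C ⊆ makerCells σ b n := by
  refine ⟨stratFrom n x₀, rfl, fun b hb hR => ?_⟩
  set τ := stratFrom n x₀ with hτ
  set b' : ℕ → Cell := fun k => b (k + 1) with hb'
  set τ' := strat n {x₀} {b 0} with hτ'
  have hmove0 : makerMove τ b 0 = x₀ := rfl
  have hmove : ∀ k, makerMove τ b (k + 1) = makerMove τ' b' k := by
    intro k
    simp only [makerMove, List.range_succ_eq_map, List.map_cons, List.map_map]
    rfl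
  have hcells : ∀ k, makerCells τ b (k + 1) = {x₀} ∪ makerCells τ' b' k := by
    intro k
    ext c
    simp only [Finset.mem_union, makerCells, Finset.mem_image, Finset.mem_range,
      Finset.mem_singleton]
    constructor
    · rintro ⟨j, hj, rfl⟩
      cases j with
      | zero => exact Or.inl hmove0
      | succ j => exact Or.inr ⟨j, by omega, (hmove j).symm⟩
    · rintro (rfl | ⟨j, hj, rfl⟩)
      · exact ⟨0, by omega, hmove0⟩
      · exact ⟨j + 1, by omega, hmove j⟩
  have hbcells : ∀ k, breakerCells b (k + 1) = {b 0} ∪ breakerCells b' k := by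
    intro k
    ext c
    simp only [Finset.mem_union, breakerCells, Finset.mem_image, Finset.mem_range,
      Finset.mem_singleton]
    constructor
    · rintro ⟨j, hj, rfl⟩
      cases j with
      | zero => exact Or.inl rfl
      | succ j => exact Or.inr ⟨j, by omega, rfl⟩
    · rintro (rfl | ⟨j, hj, rfl⟩)
      · exact ⟨0, by omega, rfl⟩
      · exact ⟨j + 1, by omega, rfl⟩
  have hb0 : b 0 ≠ x₀ := by
    have := (hb 0).1
    rw [hcells 0] at this
    intro hc
    exact this (Finset.mem_union_left _ (by rw [hc]; exact Finset.mem_singleton_self _))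
  obtain ⟨k, hk1, C, hC, hCk⟩ := strat_wins n {x₀} {b 0} (h (b 0) hb0 hR) b' (by
    intro k
    have := hb (k + 1)
    rw [hcells (k + 1), hbcells k] at this
    exact this)
  refine ⟨k + 1, ?_, C, hC, ?_⟩
  · intro j hj
    cases j with
    | zero =>
      rw [hmove0]
      constructor
      · simp [makerCells]
      · simp [breakerCells]
    | succ j =>
      rw [hmove j, hcells j, hbcells j]
      exact hk1 j (by omega)
  · rw [hcells k]
    exact hCk

/-- `p` and `q` share an edge. -/
def Adj (p q : Cell) : Prop := |p.1 - q.1| + |p.2 - q.2| = 1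

/-- the final check, with the four neighbours of the first cell excepted -/
def finalCheckAdj (roots : Mem) : Bool :=
  memWin roots && (List.range 16).all fun x => (List.range 16).all fun y =>
    (x == 8 && y == 8) || (x == 8 && y == 9) || (x == 8 && y == 7) || (x == 9 && y == 8) ||
      (x == 7 && y == 8) || memAny (fun z => missSym z x y) roots

/-- Root facts that pass the check give a strategy which wins unless Breaker's first reply shares
an edge with Maker's first cell. -/
theorem partial_sound {roots : Mem} (h : MemOK roots) (hc : finalCheckAdj roots = true) :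
    ∃ σ : List Cell → Cell, ∀ b : ℕ → Cell,
      (∀ k, b k ∉ makerCells σ b (k + 1) ∧ b k ∉ breakerCells b k) →
      ¬ Adj (makerMove σ b 0) (b 0) →
      ∃ n, (∀ k < n, makerMove σ b k ∉ makerCells σ b k ∧ makerMove σ b k ∉ breakerCells b k) ∧
        ∃ C, IsCopy C ∧ C ⊆ makerCells σ b n := by
  simp only [finalCheckAdj, Bool.and_eq_true, List.all_eq_true, List.mem_range, Bool.or_eq_true,
    beq_iff_eq] at hc
  obtain ⟨hw, hc⟩ := hc
  obtain ⟨n, hn⟩ := roots_sound roots h hw
  have hne : roots ≠ Mem.nil := by
    rintro rfl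
    rcases hc 0 (by norm_num) 0 (by norm_num) with (((((h | h) | h) | h) | h) | h)
    iterate 5 omega
    exact absurd h (by simp [memAny])
  obtain ⟨σ, hσ0, hσ⟩ := exists_partial (n := n) (x₀ := org) (R := fun c => ¬ Adj org c)
    (fun b hb' hR => by
      apply hn b hb'
      by_cases hin : b.1 < 0 ∨ 16 ≤ b.1 ∨ b.2 < 0 ∨ 16 ≤ b.2
      · exact Or.inl ⟨hin, hne⟩
      · right
        push Not at hin
        obtain ⟨h1, h2, h3, h4⟩ := hin
        refine ⟨b.1.toNat, b.2.toNat, by omega, by omega, ?_, ?_⟩
        · ext <;> simp <;> omega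
        · have hR' : ¬ (|8 - b.1| + |8 - b.2| = 1) := hR
          have hb'' : ¬ (b.1 = 8 ∧ b.2 = 8) := by
            rintro ⟨h5, h6⟩
            exact hb' (Prod.ext h5 h6)
          rcases hc b.1.toNat (by omega) b.2.toNat (by omega) with
            (((((h5 | h5) | h5) | h5) | h5) | h5)
          · exact absurd ⟨by omega, by omega⟩ hb''
          · exfalso; apply hR'
            rw [show b.1 = 8 by omega, show b.2 = 9 by omega]; norm_num
          · exfalso; apply hR'
            rw [show b.1 = 8 by omega, show b.2 = 7 by omega]; norm_num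
          · exfalso; apply hR'
            rw [show b.1 = 9 by omega, show b.2 = 8 by omega]; norm_num
          · exfalso; apply hR'
            rw [show b.1 = 7 by omega, show b.2 = 8 by omega]; norm_num
          · exact h5)
  refine ⟨σ, fun b hb hR => hσ b hb ?_⟩
  have e : makerMove σ b 0 = org := by
    show σ ((List.range 0).map b) = org
    exact hσ0
  rw [e] at hR
  exact hR

end Vale.Agent.P062
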