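import Vale.Agent.Lib.P062.QaC0
import Vale.Agent.Lib.P062.QaC1
import Vale.Agent.Lib.P062.QaC2
import Vale.Agent.Lib.P062.QaC3
import Vale.Agent.Lib.P062.QaC4
import Vale.Agent.Lib.P062.QaC5

namespace Vale.Agent.P062.Qa

set_option maxRecDepth 100000

theorem impOK0 : MemsOK imp0 := ⟨blk0 trivial, trivial⟩

theorem impOK1 : MemsOK imp1 := ⟨blk1 impOK0, impOK0⟩

theorem impOK2 : MemsOK imp2 := ⟨blk2 impOK1, impOK1⟩

theorem impOK3 : MemsOK imp3 := ⟨blk3 impOK2, impOK2⟩

theorem impOK4 : MemsOK imp4 := ⟨blk4 impOK3, impOK3⟩

theorem impOK5 : MemsOK imp5 := ⟨blk5 impOK4, impOK4⟩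

theorem impOK6 : MemsOK imp6 := ⟨blk6 impOK5, impOK5⟩

theorem impOK7 : MemsOK imp7 := ⟨blk7 impOK6, impOK6⟩

theorem impOK8 : MemsOK imp8 := ⟨blk8 impOK7, impOK7⟩

theorem impOK9 : MemsOK imp9 := ⟨blk9 impOK8, impOK8⟩

theorem impOK10 : MemsOK imp10 := ⟨blk10 impOK9, impOK9⟩

noncomputable def codeR : Mem := (Mem.cons (nat_lit 18) (nat_lit 0x3800000e000000e0002038000003800000e000000e0012058000003800901e000000e00960f8000003802d846000000e00821380000038043056) Mem.nil)

noncomputable def roots : Mem := (Mem.cons (nat_lit 0x1000000000000000000000000000000000000000000000000000000000000000000) (nat_lit 0x7c000000fe000000ff000003ff800001ff000001ff800001ff800000ef800003ffe00003ffe00003ffc00003ff000001ff000000fe000001fc000000000) (Mem.cons (nat_lit 0x1000000000000000000000000000000000000000000000000000000000000000000) (nat_lit 0x280000003e0000007f800001bf000001ff800003ef800007ff800007ffe00007ffe00007ffc00007fd000000a000000000000000000) (Mem.cons (nat_lit 0x1000000000000000000000000000000000000000000000000000000000000000000) (nat_lit 0xa000000af800000ffc00000ffe00000fff00001fff00001fff00003afe00001fff00001fff00003fff00003ff400001ff000000fe000001fc000000000)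 (Mem.cons (nat_lit 0x1000000000000000000000000000000000000000000000000000000000000000000) (nat_lit 0x2b4000003fe00001ffe00001ffe00003bfe00003efe00003ffe00001ffe00001ffe00003ffe000007fe000007fc000007f4000004a0) (Mem.cons (nat_lit 0x1000000000000000000000000000000000000000000000000000000000000000000) (nat_lit 0x58000007f800000bf800003ffe00003fff00007ffe00007dff00007eff00007fff00007fff00007ffe00003fff00001ffc00003ffe00000ffc00001ffc) (Mem.cons (nat_lit 0x1000000000000000000000000000000000000000000000000000000000000000000) (nat_lit 0x4a0000007e000000ff400000ffc00001fff00000fff00001fff000006fe00003fff00003fff00003fff00003ffe00001ffc00003ffe00001fc000000500) (Mem.cons (nat_lit 0x1000000000000000000000000000000000000000000000000000000000000000000) (nat_lit 0x7c000000fe800000ff800003ffc00001ffc00001fff000007ff00001eff00001ffe00001ffe00000ffc00000ffc00003ff400001f000000050000000000) (Mem.cons (nat_lit 0x1000000000000000000000000000000000000000000000000000000000000000000) (nat_lit 0x2a0000003f0000007f8000007f800001ff800003ef800003ffe00001ffe00001ffe00003ffe000007fc000007fe000007e0000004a0)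 (Mem.cons (nat_lit 0x1000000000000000000000000000000000000000000000000000000000000000000) (nat_lit 0x7c000000fe800000ff800003ffc00001ffc00001fff000007ff00001eff00001ffe00001ffe00000ffc00000ffc00003ff400001f000000050000000000) Mem.nil)))))))))

theorem rootsOK : MemOK roots :=
  check_sound (code := codeR) (imp := imp10) (by decide +kernel) impOK10

end Vale.Agent.P062.Qa
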