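import Vale.Agent.Lib.P062.Machine

/-!
# P062: soundness of the certificate checker
-/

namespace Vale.Agent.P062

/-- the cell coded by the bit `i` -/
def cellOf (i : ℕ) : Cell := (((i % 32 : ℕ) : ℤ), ((i / 32 : ℕ) : ℤ))

theorem cellOf_inj {i j : ℕ} (h : cellOf i = cellOf j) : i = j := by
  simp only [cellOf, Prod.mk.injEq, Nat.cast_inj] at h
  omega

/-- the set of cells coded by a number -/
def cs (m : ℕ) : Set Cell := {c | ∃ i, m.testBit i = true ∧ cellOf i = c}

theorem mem_cs {m i : ℕ} : cellOf i ∈ cs m ↔ m.testBit i = true := by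
  constructor
  · rintro ⟨j, hj, hji⟩
    rw [← cellOf_inj hji]; exact hj
  · intro h
    exact ⟨i, h, rfl⟩

theorem cs_lor (a b : ℕ) : cs (Nat.lor a b) = cs a ∪ cs b := by
  ext c
  constructor
  · rintro ⟨i, hi, rfl⟩
    change Nat.testBit (a ||| b) i = true at hi
    rw [Nat.testBit_or, Bool.or_eq_true] at hi
    rcases hi with hi | hi
    · exact Or.inl ⟨i, hi, rfl⟩
    · exact Or.inr ⟨i, hi, rfl⟩
  · rintro (⟨i, hi, rfl⟩ | ⟨i, hi, rfl⟩)
    · refine ⟨i, ?_, rfl⟩
      change Nat.testBit (a ||| b) i = true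
      rw [Nat.testBit_or, hi]; rfl
    · refine ⟨i, ?_, rfl⟩
      change Nat.testBit (a ||| b) i = true
      rw [Nat.testBit_or, hi, Bool.or_true]

theorem cs_land (a b : ℕ) : cs (Nat.land a b) = cs a ∩ cs b := by
  ext c
  constructor
  · rintro ⟨i, hi, rfl⟩
    change Nat.testBit (a &&& b) i = true at hi
    rw [Nat.testBit_and, Bool.and_eq_true] at hi
    exact ⟨⟨i, hi.1, rfl⟩, ⟨i, hi.2, rfl⟩⟩
  · rintro ⟨⟨i, hi, rfl⟩, hb⟩
    rw [mem_cs] at hb
    refine ⟨i, ?_, rfl⟩
    change Nat.testBit (a &&& b) i = true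
    rw [Nat.testBit_and, hi, hb]; rfl

/-- carrier fact for masks -/
def F (m z : ℕ) : Prop := Fact (cs m) (cs z)

/-- frame for masks -/
def Fr (u i v : ℕ) : Prop := Frame (cs u) (cs i) (cs v)

/-- all frames of the stack are valid -/
def StkOK : Stk → Prop
  | Stk.nil => True
  | Stk.cons u i v s => Fr u i v ∧ StkOK s

/-- all facts of the list are valid -/
def MemOK : Mem → Prop
  | Mem.nil => True
  | Mem.cons m z t => F m z ∧ MemOK t

theorem F.fr {m z : ℕ} (h : F m z) : Fr m z z := Fact.frame h

theorem Fr.fold {u i v m z : ℕ} (h : Fr u i v) (h' : F m z) :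
    Fr (Nat.lor u m) (Nat.land i z) (Nat.lor v z) := by
  unfold Fr
  rw [cs_lor, cs_land, cs_lor]
  exact Frame.fold h h'

theorem andThen_eq {b x : Bool} (h : andThen b x = true) : b = true ∧ x = true := by
  cases b
  · exact absurd h (by simp [andThen])
  · exact ⟨rfl, h⟩

theorem frc_eq {n : ℕ} {k : ℕ → Bool} (h : frc n k = true) : k n = true := h

theorem tb_one (c j : ℕ) : (Nat.shiftLeft 1 c).testBit j = decide (c = j) := by
  change (1 <<< c).testBit j = _
  rw [Nat.one_shiftLeft, Nat.testBit_two_pow]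

theorem close_sound {P : Prop} {u i v c : ℕ} {k : ℕ → ℕ → Bool} (hF : Fr u i v)
    (h : close u i v c k = true) (hk : ∀ m z, F m z → k m z = true → P) : P := by
  unfold close at h
  obtain ⟨h1, h2⟩ := andThen_eq h
  have h3 := frc_eq (frc_eq h2)
  refine hk _ _ ?_ h3
  have h4 := Nat.eq_of_beq_eq_true h1
  have key : ∀ j, i.testBit j = true → c = j ∨ u.testBit j = true := by
    intro j hj
    have h5 : (Nat.land i (Nat.lor u (Nat.shiftLeft 1 c))).testBit j = true := by
      rw [show Nat.land i (Nat.lor u (Nat.shiftLeft 1 c)) = i from h4]; exact hj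
    change (i &&& (u ||| Nat.shiftLeft 1 c)).testBit j = true at h5
    rw [Nat.testBit_and, Nat.testBit_or, tb_one, hj, Bool.true_and, Bool.or_eq_true,
      decide_eq_true_eq] at h5
    exact h5.symm
  have tbm : ∀ j, (Nat.xor (Nat.lor u (Nat.shiftLeft 1 c)) (Nat.shiftLeft 1 c)).testBit j =
      (u.testBit j && !decide (c = j)) := by
    intro j
    change ((u ||| Nat.shiftLeft 1 c) ^^^ Nat.shiftLeft 1 c).testBit j = _
    rw [Nat.testBit_xor, Nat.testBit_or, tb_one]
    cases u.testBit j <;> cases decide (c = j) <;> rfl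
  have tbz : ∀ m j : ℕ, (Nat.xor (Nat.lor v (Nat.shiftLeft 1 c))
      (Nat.land (Nat.lor v (Nat.shiftLeft 1 c)) m)).testBit j =
      ((v.testBit j || decide (c = j)) && !m.testBit j) := by
    intro m j
    change ((v ||| Nat.shiftLeft 1 c) ^^^ ((v ||| Nat.shiftLeft 1 c) &&& m)).testBit j = _
    rw [Nat.testBit_xor, Nat.testBit_and, Nat.testBit_or, tb_one]
    cases v.testBit j <;> cases decide (c = j) <;> cases m.testBit j <;> rfl
  refine Frame.close (c := cellOf c) hF ?_ ?_ ?_ ?_ ?_
  · rintro x ⟨j, hj, rfl⟩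
    rcases key j hj with h6 | h6
    · left; rw [h6]
    · right; exact ⟨j, h6, rfl⟩
  · rintro x ⟨j, hj, rfl⟩
    by_cases hcj : c = j
    · left; rw [hcj]
    · right
      refine ⟨j, ?_, rfl⟩
      refine (tbm j).trans ?_
      rw [hj]; simp [hcj]
  · intro hc
    rw [mem_cs] at hc
    have := (tbm c).symm.trans hc
    simp at this
  · rw [mem_cs]
    refine (tbz _ c).trans ?_
    have := tbm c
    rw [show (Nat.xor (Nat.lor u (Nat.shiftLeft 1 c)) (Nat.shiftLeft 1 c)).testBit c = false from
      (tbm c).trans (by simp)]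
    simp
  · rintro x ⟨j, hj, rfl⟩
    rw [mem_cs, mem_cs]
    by_cases hm : (Nat.xor (Nat.lor u (Nat.shiftLeft 1 c)) (Nat.shiftLeft 1 c)).testBit j = true
    · right; exact hm
    · left
      refine (tbz _ j).trans ?_
      rw [Bool.not_eq_true] at hm
      rw [hm, hj]; rfl

/-- all lists of facts are valid -/
def MemsOK : Mems → Prop
  | Mems.nil => True
  | Mems.cons l t => MemOK l ∧ MemsOK t

/-! ## Base facts -/

/-- the bits of the cells of the eight orientations, at shift `0` -/
def oris : List (List ℕ) :=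
  [[0, 1, 2, 3, 35, 36], [4, 3, 2, 1, 33, 32], [32, 33, 34, 35, 3, 4], [36, 35, 34, 33, 1, 0],
   [0, 32, 64, 96, 97, 129], [128, 96, 64, 32, 33, 1], [1, 33, 65, 97, 96, 128],
   [129, 97, 65, 33, 32, 0]]

theorem tab_ok : ∀ k < 64, ∃ l ∈ oris, ∃ c ∈ l,
    (Nat.land (Nat.shiftRight tabZ (256 * k)) mask256).testBit c = true ∧
    ∀ p ∈ l, p = c ∨ (Nat.land (Nat.shiftRight tabM (256 * k)) mask256).testBit p = true := by
  decide +kernel

theorem image_snaky (f : Cell → Cell) : snaky.image f =
    ([f (0, 0), f (1, 0), f (2, 0), f (3, 0), f (3, 1), f (4, 1)] : List Cell).toFinset := by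
  ext c
  simp [snaky]

theorem isCopy_of_ori {l : List ℕ} (hl : l ∈ oris) {s : ℕ} (hs : s % 32 < 16) :
    IsCopy ((l.map fun p => cellOf (p + s)).toFinset) := by
  have hcell : ∀ p x y : ℕ, p = x + 32 * y → x < 16 → cellOf (p + s) =
      (((x : ℤ) + (s % 32 : ℕ)), ((y : ℤ) + (s / 32 : ℕ))) := by
    intro p x y hp hx
    unfold cellOf
    have e1 : (p + s) % 32 = x + s % 32 := by omega
    have e2 : (p + s) / 32 = y + s / 32 := by omega
    rw [e1, e2]
    push_cast
    rfl
  generalize hr : ((s % 32 : ℕ) : ℤ) = r at hcell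
  generalize hq : ((s / 32 : ℕ) : ℤ) = q at hcell
  have c0 := hcell 0 0 0 (by norm_num) (by norm_num)
  have c1 := hcell 1 1 0 (by norm_num) (by norm_num)
  have c2 := hcell 2 2 0 (by norm_num) (by norm_num)
  have c3 := hcell 3 3 0 (by norm_num) (by norm_num)
  have c4 := hcell 4 4 0 (by norm_num) (by norm_num)
  have c32 := hcell 32 0 1 (by norm_num) (by norm_num)
  have c33 := hcell 33 1 1 (by norm_num) (by norm_num)
  have c34 := hcell 34 2 1 (by norm_num) (by norm_num)
  have c35 := hcell 35 3 1 (by norm_num) (by norm_num)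
  have c36 := hcell 36 4 1 (by norm_num) (by norm_num)
  have c64 := hcell 64 0 2 (by norm_num) (by norm_num)
  have c65 := hcell 65 1 2 (by norm_num) (by norm_num)
  have c96 := hcell 96 0 3 (by norm_num) (by norm_num)
  have c97 := hcell 97 1 3 (by norm_num) (by norm_num)
  have c128 := hcell 128 0 4 (by norm_num) (by norm_num)
  have c129 := hcell 129 1 4 (by norm_num) (by norm_num)
  simp only [oris, List.mem_cons, List.not_mem_nil, or_false] at hl
  rcases hl with rfl | rfl | rfl | rfl | rfl | rfl | rfl | rfl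
  · refine ⟨(r, q), 1, 1, false, ?_⟩
    rw [image_snaky]
    congr 1
    simp only [List.map_cons, List.map_nil, c0, c1, c2, c3, c35, c36, signedPerm]
    simp [add_comm]
  · refine ⟨(r + 4, q), -1, 1, false, ?_⟩
    rw [image_snaky]
    congr 1
    simp only [List.map_cons, List.map_nil, c4, c3, c2, c1, c33, c32, signedPerm]
    simp
    and_intros <;> ring
  · refine ⟨(r, q + 1), 1, -1, false, ?_⟩
    rw [image_snaky]
    congr 1
    simp only [List.map_cons, List.map_nil, c32, c33, c34, c35, c3, c4, signedPerm]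
    simp
    and_intros <;> ring
  · refine ⟨(r + 4, q + 1), -1, -1, false, ?_⟩
    rw [image_snaky]
    congr 1
    simp only [List.map_cons, List.map_nil, c36, c35, c34, c33, c1, c0, signedPerm]
    simp
    and_intros <;> ring
  · refine ⟨(r, q), 1, 1, true, ?_⟩
    rw [image_snaky]
    congr 1
    simp only [List.map_cons, List.map_nil, c0, c32, c64, c96, c97, c129, signedPerm]
    simp [add_comm]
  · refine ⟨(r, q + 4), 1, -1, true, ?_⟩
    rw [image_snaky]
    congr 1
    simp only [List.map_cons, List.map_nil, c128, c96, c64, c32, c33, c1, signedPerm]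
    simp
    and_intros <;> ring
  · refine ⟨(r + 1, q), -1, 1, true, ?_⟩
    rw [image_snaky]
    congr 1
    simp only [List.map_cons, List.map_nil, c1, c33, c65, c97, c96, c128, signedPerm]
    simp
    and_intros <;> ring
  · refine ⟨(r + 1, q + 4), -1, -1, true, ?_⟩
    rw [image_snaky]
    congr 1
    simp only [List.map_cons, List.map_nil, c129, c97, c65, c33, c32, c0, signedPerm]
    simp
    and_intros <;> ring

theorem tb_shl (a s j : ℕ) (h : a.testBit j = true) :
    (Nat.shiftLeft a s).testBit (j + s) = true := by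
  change (a <<< s).testBit (j + s) = true
  rw [Nat.testBit_shiftLeft]
  simp [h]

theorem codeK_eq (n : ℕ) : ∃ k < 64, codeK n = 256 * k := by
  refine ⟨(n / 8) % 64, Nat.mod_lt _ (by norm_num), ?_⟩
  unfold codeK
  change (n &&& 504) <<< 5 = _
  have h : n &&& 504 = 8 * ((n / 8) % 64) := by
    apply Nat.eq_of_testBit_eq
    intro i
    rw [Nat.testBit_and, show (504 : ℕ) = 2 ^ 3 * (2 ^ 6 - 1) by norm_num,
      show (8 : ℕ) = 2 ^ 3 by norm_num, show (64 : ℕ) = 2 ^ 6 by norm_num,
      Nat.testBit_two_pow_mul, Nat.testBit_two_pow_mul, Nat.testBit_mod_two_pow,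
      Nat.testBit_two_pow_sub_one]
    by_cases hi : i ≥ 3
    · have e : (n / 2 ^ 3).testBit (i - 3) = n.testBit i := by
        rw [Nat.testBit_div_two_pow]
        congr 1
        omega
      rw [e]
      cases n.testBit i <;> simp
    · simp [hi]
  rw [h, Nat.shiftLeft_eq]
  ring

theorem codeS_lt (n : ℕ) : codeS n % 32 < 16 := by
  unfold codeS
  change ((n >>> 9) &&& 495) % 32 < 16
  generalize n >>> 9 = a
  have h4 : (a &&& 495).testBit 4 = false := by
    rw [Nat.testBit_and, show Nat.testBit 495 4 = false by decide, Bool.and_false]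
  rw [Nat.testBit_eq_decide_div_mod_eq] at h4
  simp only [decide_eq_false_iff_not] at h4
  omega

theorem base_sound (n : ℕ) : F (baseM n) (baseZ n) := by
  obtain ⟨k, hk, hkn⟩ := codeK_eq n
  have hs := codeS_lt n
  obtain ⟨l, hl, c, hc, hcz, hlp⟩ := tab_ok k hk
  unfold F baseM baseZ
  rw [hkn]
  generalize codeS n = s at hs
  apply Fact.base (isCopy_of_ori hl hs) (c := cellOf (c + s))
  · intro x hx
    rw [List.mem_toFinset, List.mem_map] at hx
    obtain ⟨p, hp, rfl⟩ := hx
    rcases hlp p hp with rfl | hpm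
    · left; rfl
    · right
      exact mem_cs.2 (tb_shl _ _ _ hpm)
  · exact mem_cs.2 (tb_shl _ _ _ hcz)

/-! ## The machine -/

/-- soundness of a continuation -/
def Good (ih : Cont) : Prop :=
  ∀ n m z st mem ex, F m z → StkOK st → MemsOK mem → ih n m z st mem ex = true → MemOK ex

/-- soundness of an end continuation -/
def Good' (cont : ℕ → ℕ → Stk → Mems → Mem → Bool) : Prop :=
  ∀ m z st mem ex, F m z → StkOK st → MemsOK mem → cont m z st mem ex = true → MemOK ex

section ops

variable {ih : Cont} (hih : Good ih) {n m z : ℕ} {st : Stk} {mem : Mems} {ex : Mem}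
include hih

theorem opLB_sound (hst : StkOK st) (hmem : MemsOK mem) (h : opLB ih n st mem ex = true) :
    MemOK ex :=
  hih _ _ _ _ _ _ (base_sound n) hst hmem (frc_eq (frc_eq h))

theorem opTH_sound (hF : F m z) (hst : StkOK st) (hmem : MemsOK mem)
    (h : opTH ih n m z st mem ex = true) : MemOK ex :=
  close_sound (hF.fr.fold (base_sound n)) h fun _ _ hF' h' => hih _ _ _ _ _ _ hF' hst hmem h'

theorem opOP_sound (hF : F m z) (hst : StkOK st) (hmem : MemsOK mem)
    (h : opOP ih n m z st mem ex = true) : MemOK ex :=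
  hih _ _ _ (Stk.cons m z z st) _ _ hF ⟨hF.fr, hst⟩ hmem h

theorem opFO_sound (hF : F m z) (hst : StkOK st) (hmem : MemsOK mem)
    (h : opFO ih n m z st mem ex = true) : MemOK ex := by
  cases st with
  | nil => exact absurd h (by simp [opFO])
  | cons u i v s =>
    exact hih _ _ _ (Stk.cons _ _ _ s) _ _ hF ⟨hst.1.fold hF, hst.2⟩ hmem h

theorem opCL_sound (hF : F m z) (hst : StkOK st) (hmem : MemsOK mem)
    (h : opCL ih n m z st mem ex = true) : MemOK ex := by
  cases st with
  | nil => exact absurd h (by simp [opCL])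
  | cons u i v s =>
    exact close_sound (hst.1.fold hF) h fun _ _ hF' h' => hih _ _ _ _ _ _ hF' hst.2 hmem h'

theorem opSV_sound (hF : F m z) (hst : StkOK st) (hmem : MemsOK mem)
    (h : opSV ih n m z st mem ex = true) : MemOK ex := by
  cases mem with
  | nil => exact absurd h (by simp [opSV])
  | cons l t =>
    exact hih _ _ _ _ (Mems.cons (Mem.cons m z l) t) _ hF hst ⟨⟨hF, hmem.1⟩, hmem.2⟩ h

omit hih in
theorem memGet_sound {P : Prop} {k : ℕ → ℕ → Bool} (r : ℕ) : ∀ (mem : Mem), MemOK mem →
    memGet r mem k = true → (∀ m z, F m z → k m z = true → P) → P := by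
  induction r with
  | zero =>
    intro mem hmem h hk
    cases mem with
    | nil => exact absurd h (by simp [memGet])
    | cons m z t => exact hk m z hmem.1 h
  | succ r ihr =>
    intro mem hmem h hk
    cases mem with
    | nil => exact absurd h (by simp [memGet])
    | cons m z t => exact ihr t hmem.2 h hk

omit hih in
theorem memsGet_sound {P : Prop} {k : ℕ → ℕ → Bool} (a r : ℕ) : ∀ (mem : Mems), MemsOK mem →
    memsGet a r mem k = true → (∀ m z, F m z → k m z = true → P) → P := by
  induction a with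
  | zero =>
    intro mem hmem h hk
    cases mem with
    | nil => exact absurd h (by simp [memsGet])
    | cons l t => exact memGet_sound r l hmem.1 h hk
  | succ a iha =>
    intro mem hmem h hk
    cases mem with
    | nil => exact absurd h (by simp [memsGet])
    | cons l t => exact iha t hmem.2 h hk

theorem opLD_sound (hst : StkOK st) (hmem : MemsOK mem) (h : opLD ih n st mem ex = true) :
    MemOK ex :=
  memsGet_sound _ _ mem hmem h fun _ _ hF' h' => hih _ _ _ _ _ _ hF' hst hmem h'

theorem opEX_sound (hF : F m z) (hst : StkOK st) (hmem : MemsOK mem)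
    (h : opEX ih n m z st mem ex = true) : MemOK ex := by
  cases ex with
  | nil => exact absurd h (by simp [opEX])
  | cons m' z' t =>
    obtain ⟨h1, h2⟩ := andThen_eq h
    obtain ⟨h3, h4⟩ := andThen_eq h2
    have e1 := Nat.eq_of_beq_eq_true h1
    have e2 := Nat.eq_of_beq_eq_true h3
    subst e1
    subst e2
    exact ⟨hF, hih _ _ _ _ _ _ hF hst hmem h4⟩

theorem disp2_sound (hF : F m z) (hst : StkOK st) (hmem : MemsOK mem) (op : ℕ)
    (h : disp2 ih n m z st mem ex op = true) : MemOK ex := by
  match op with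
  | 0 => exact opLB_sound hih hst hmem h
  | 1 => exact opOP_sound hih hF hst hmem h
  | 2 => exact opFO_sound hih hF hst hmem h
  | 3 => exact opCL_sound hih hF hst hmem h
  | 4 => exact opSV_sound hih hF hst hmem h
  | 5 => exact opLD_sound hih hst hmem h
  | (_ + 6) => exact opEX_sound hih hF hst hmem h

theorem disp_sound (hF : F m z) (hst : StkOK st) (hmem : MemsOK mem) (op : ℕ)
    (h : disp ih n m z st mem ex op = true) : MemOK ex := by
  match op with
  | 0 => exact opTH_sound hih hF hst hmem h
  | (op + 1) => exact disp2_sound hih hF hst hmem op h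

end ops

theorem chunk_sound {cont : ℕ → ℕ → Stk → Mems → Mem → Bool} (hc : Good' cont) (fuel : ℕ) :
    Good (chunk cont fuel) := by
  induction fuel with
  | zero => intro n m z st mem ex hF hst hmem h; exact hc _ _ _ _ _ hF hst hmem h
  | succ fuel ih =>
    intro n m z st mem ex hF hst hmem h
    exact disp_sound ih hF hst hmem _ h

theorem run_sound (code : Mem) : Good' (run code) := by
  induction code with
  | nil =>
    intro m z st mem ex _ _ _ h
    cases ex with
    | nil => trivial
    | cons a b t => exact absurd h (by simp [run, isNil])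
  | cons k n t ih =>
    intro m z st mem ex hF hst hmem h
    exact chunk_sound ih k n m z st mem ex hF hst hmem h

theorem start_ok : F (nat_lit 103079215118) (nat_lit 1) := by
  have h0 : ([0, 1, 2, 3, 35, 36] : List ℕ) ∈ oris := by simp [oris]
  apply Fact.base (isCopy_of_ori h0 (s := 0) (by norm_num)) (c := cellOf 0)
  · intro x hx
    rw [List.mem_toFinset, List.mem_map] at hx
    obtain ⟨p, hp, rfl⟩ := hx
    have : ∀ p ∈ ([0, 1, 2, 3, 35, 36] : List ℕ), p = 0 ∨
        (nat_lit 103079215118).testBit p = true := by decide +kernel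
    rcases this p hp with rfl | h
    · left; rfl
    · right
      exact mem_cs.2 h
  · exact mem_cs.2 (by decide)

/-- Soundness of the checker. -/
theorem check_sound {code : Mem} {imp : Mems} {out : Mem} (h : check code imp out = true)
    (himp : MemsOK imp) : MemOK out :=
  run_sound code _ _ Stk.nil (Mems.cons Mem.nil imp) out start_ok trivial ⟨trivial, himp⟩ h

end Vale.Agent.P062
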