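import Vale.Agent.Lib.P062.Game

/-!
# P062: from bounded wins to strategies, and the carrier facts
-/

namespace Vale.Agent.P062

/-- Maker already owns a copy. -/
def Won (X : Finset Cell) : Prop := ∃ C, IsCopy C ∧ C ⊆ X

/-- Maker, to move at the position with Maker cells `X` and Breaker cells `Y`, can win with at
most `n` further moves. -/
def WinsIn : ℕ → Finset Cell → Finset Cell → Prop
  | 0, X, _ => Won X
  | (n + 1), X, Y => Won X ∨ ∃ m, m ∉ X ∧ m ∉ Y ∧
      ∀ b, b ∉ insert m X → b ∉ Y → WinsIn n (insert m X) (insert b Y)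

theorem WinsIn.of_won {n : ℕ} {X Y : Finset Cell} (h : Won X) : WinsIn n X Y := by
  cases n with
  | zero => exact h
  | succ n => exact Or.inl h

theorem WinsIn.succ : ∀ {n : ℕ} {X Y : Finset Cell}, WinsIn n X Y → WinsIn (n + 1) X Y
  | 0, _, _, h => Or.inl h
  | (_ + 1), _, _, h => by
    rcases h with h | ⟨m, hm, hm', h⟩
    · exact Or.inl h
    · exact Or.inr ⟨m, hm, hm', fun b hb hb' => (h b hb hb').succ⟩

theorem WinsIn.mono {n k : ℕ} (hnk : n ≤ k) {X Y : Finset Cell} (h : WinsIn n X Y) :
    WinsIn k X Y := by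
  induction hnk with
  | refl => exact h
  | step _ ih => exact ih.succ

/-! ## Extraction of a strategy -/

open Classical in
/-- the move chosen by Maker with `n` moves left -/
noncomputable def pick (n : ℕ) (X Y : Finset Cell) : Cell :=
  if h : ∃ m, m ∉ X ∧ m ∉ Y ∧
      ∀ b, b ∉ insert m X → b ∉ Y → WinsIn (n - 1) (insert m X) (insert b Y)
  then h.choose else (0, 0)

/-- the strategy from the position `(X, Y)` with `n` moves left -/
noncomputable def strat : ℕ → Finset Cell → Finset Cell → List Cell → Cell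
  | n, X, Y, [] => pick n X Y
  | n, X, Y, (b :: l) => strat (n - 1) (insert (pick n X Y) X) (insert b Y) l

theorem strat_wins : ∀ (n : ℕ) (X Y : Finset Cell), WinsIn n X Y → ∀ b : ℕ → Cell,
    (∀ k, b k ∉ X ∪ makerCells (strat n X Y) b (k + 1) ∧ b k ∉ Y ∪ breakerCells b k) →
    ∃ k, (∀ j < k, makerMove (strat n X Y) b j ∉ X ∪ makerCells (strat n X Y) b j ∧
      makerMove (strat n X Y) b j ∉ Y ∪ breakerCells b j) ∧
      ∃ C, IsCopy C ∧ C ⊆ X ∪ makerCells (strat n X Y) b k := by
  intro n
  induction n with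
  | zero =>
    intro X Y h b _
    obtain ⟨C, hC, hCX⟩ := h
    exact ⟨0, fun j hj => absurd hj (Nat.not_lt_zero _), C, hC,
      hCX.trans Finset.subset_union_left⟩
  | succ n ih =>
    intro X Y h b hb
    by_cases hW : Won X
    · obtain ⟨C, hC, hCX⟩ := hW
      exact ⟨0, fun j hj => absurd hj (Nat.not_lt_zero _), C, hC,
        hCX.trans Finset.subset_union_left⟩
    have hex : ∃ m, m ∉ X ∧ m ∉ Y ∧
        ∀ b, b ∉ insert m X → b ∉ Y → WinsIn (n + 1 - 1) (insert m X) (insert b Y) := by
      rcases h with h | h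
      · exact absurd h hW
      · exact h
    set m := pick (n + 1) X Y with hm
    have hpick : m ∉ X ∧ m ∉ Y ∧
        ∀ b, b ∉ insert m X → b ∉ Y → WinsIn (n + 1 - 1) (insert m X) (insert b Y) := by
      have e : m = hex.choose := by
        rw [hm, pick, dif_pos hex]
      rw [e]
      exact hex.choose_spec
    obtain ⟨hmX, hmY, hmW⟩ := hpick
    simp only [Nat.add_sub_cancel] at hmW
    set τ := strat (n + 1) X Y with hτ
    set b' : ℕ → Cell := fun k => b (k + 1) with hb'
    set τ' := strat n (insert m X) (insert (b 0) Y) with hτ'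
    have hmove0 : makerMove τ b 0 = m := by
      simp [makerMove, hτ, strat, hm]
    have hmove : ∀ k, makerMove τ b (k + 1) = makerMove τ' b' k := by
      intro k
      simp only [makerMove, List.range_succ_eq_map, List.map_cons, List.map_map]
      rw [hτ, strat, hτ', ← hm]
      rfl
    have hcells : ∀ k, X ∪ makerCells τ b (k + 1) = insert m X ∪ makerCells τ' b' k := by
      intro k
      ext c
      simp only [Finset.mem_union, makerCells, Finset.mem_image, Finset.mem_range,
        Finset.mem_insert]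
      constructor
      · rintro (hc | ⟨j, hj, rfl⟩)
        · exact Or.inl (Or.inr hc)
        · cases j with
          | zero => exact Or.inl (Or.inl hmove0)
          | succ j => exact Or.inr ⟨j, by omega, (hmove j).symm⟩
      · rintro ((rfl | hc) | ⟨j, hj, rfl⟩)
        · exact Or.inr ⟨0, by omega, hmove0⟩
        · exact Or.inl hc
        · exact Or.inr ⟨j + 1, by omega, hmove j⟩
    have hbcells : ∀ k, Y ∪ breakerCells b (k + 1) = insert (b 0) Y ∪ breakerCells b' k := by
      intro k
      ext c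
      simp only [Finset.mem_union, breakerCells, Finset.mem_image, Finset.mem_range,
        Finset.mem_insert]
      constructor
      · rintro (hc | ⟨j, hj, rfl⟩)
        · exact Or.inl (Or.inr hc)
        · cases j with
          | zero => exact Or.inl (Or.inl rfl)
          | succ j => exact Or.inr ⟨j, by omega, rfl⟩
      · rintro ((rfl | hc) | ⟨j, hj, rfl⟩)
        · exact Or.inr ⟨0, by omega, rfl⟩
        · exact Or.inl hc
        · exact Or.inr ⟨j + 1, by omega, rfl⟩
    have hb0 := hb 0
    have h1 : WinsIn n (insert m X) (insert (b 0) Y) := by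
      apply hmW
      · have := hb0.1
        rw [hcells 0] at this
        intro hc
        exact this (Finset.mem_union_left _ hc)
      · intro hc
        exact hb0.2 (Finset.mem_union_left _ hc)
    obtain ⟨k, hk1, C, hC, hCk⟩ := ih (insert m X) (insert (b 0) Y) h1 b' (by
      intro k
      have := hb (k + 1)
      rw [hcells (k + 1), hbcells k] at this
      exact this)
    refine ⟨k + 1, ?_, C, hC, ?_⟩
    · intro j hj
      cases j with
      | zero =>
        rw [hmove0]
        constructor
        · simp [makerCells, hmX]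
        · simp [breakerCells, hmY]
      | succ j =>
        rw [hmove j, hcells j, hbcells j]
        exact hk1 j (by omega)
    · rw [hcells k]
      exact hCk

/-- A bounded win from the empty board gives a winning strategy. -/
theorem exists_strategy {n : ℕ} (h : WinsIn n ∅ ∅) :
    ∃ σ : List Cell → Cell, IsWinningStrategy σ := by
  refine ⟨strat n ∅ ∅, fun b hb => ?_⟩
  obtain ⟨k, hk, hC⟩ := strat_wins n ∅ ∅ h b (by simpa using hb)
  exact ⟨k, by simpa using hk, by simpa using hC⟩

/-! ## Symmetries -/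

/-- A permutation of the cells that maps copies to copies. -/
def IsSym (g : Cell ≃ Cell) : Prop := ∀ C, IsCopy C → IsCopy (C.image g)

theorem WinsIn.image {g : Cell ≃ Cell} (hg : IsSym g) : ∀ {n : ℕ} {X Y : Finset Cell},
    WinsIn n X Y → WinsIn n (X.image g) (Y.image g) := by
  have hwon : ∀ {X : Finset Cell}, Won X → Won (X.image g) := by
    rintro X ⟨C, hC, hCX⟩
    exact ⟨C.image g, hg C hC, Finset.image_subset_image hCX⟩
  intro n
  induction n with
  | zero => intro X Y h; exact hwon h
  | succ n ih =>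
    intro X Y h
    rcases h with h | ⟨m, hm, hm', h⟩
    · exact Or.inl (hwon h)
    · refine Or.inr ⟨g m, ?_, ?_, ?_⟩
      · simpa using hm
      · simpa using hm'
      · intro b hb hb'
        have h1 := ih (h (g.symm b) (by
          intro hc
          apply hb
          rw [← Finset.image_insert]
          exact Finset.mem_image.2 ⟨_, hc, by simp⟩) (by
          intro hc
          apply hb'
          exact Finset.mem_image.2 ⟨_, hc, by simp⟩))
        rw [Finset.image_insert, Finset.image_insert, Equiv.apply_symm_apply] at h1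
        exact h1

/-! ## Carrier facts -/

/-- `Fact M Z`: whenever Maker owns all of `M` and Breaker owns nothing of `Z`, Maker to move
wins (in a bounded number of moves). -/
def Fact (M Z : Set Cell) : Prop :=
  ∃ n, ∀ X Y : Finset Cell, (∀ c ∈ M, c ∈ X) → Disjoint X Y → (∀ c ∈ Z, c ∉ Y) → WinsIn n X Y

/-- `Frame U I V`: whenever Maker owns all of `U`, Breaker owns nothing of `V` and Breaker now
claims a cell outside `I`, Maker wins. -/
def Frame (U I V : Set Cell) : Prop :=
  ∃ n, ∀ (X Y : Finset Cell) (b : Cell), (∀ c ∈ U, c ∈ X) → Disjoint X Y → (∀ c ∈ V, c ∉ Y) →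
    b ∉ X → b ∉ Y → b ∉ I → WinsIn n X (insert b Y)

theorem Fact.frame {M Z : Set Cell} (h : Fact M Z) : Frame M Z Z := by
  obtain ⟨n, h⟩ := h
  refine ⟨n, fun X Y b hU hXY hV hbX hbY hbI => h X (insert b Y) hU ?_ ?_⟩
  · rw [Finset.disjoint_insert_right]
    exact ⟨hbX, hXY⟩
  · intro c hc hc'
    rcases Finset.mem_insert.1 hc' with rfl | hc'
    · exact hbI hc
    · exact hV c hc hc'

theorem Frame.fold {U I V M Z : Set Cell} (h : Frame U I V) (h' : Fact M Z) :
    Frame (U ∪ M) (I ∩ Z) (V ∪ Z) := by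
  obtain ⟨n, h⟩ := h
  obtain ⟨k, h'⟩ := h'.frame
  refine ⟨max n k, fun X Y b hU hXY hV hbX hbY hbI => ?_⟩
  by_cases hb : b ∈ I
  · have hbZ : b ∉ Z := fun hbZ => hbI ⟨hb, hbZ⟩
    exact (h' X Y b (fun c hc => hU c (Or.inr hc)) hXY (fun c hc => hV c (Or.inr hc)) hbX hbY
      hbZ).mono (le_max_right _ _)
  · exact (h X Y b (fun c hc => hU c (Or.inl hc)) hXY (fun c hc => hV c (Or.inl hc)) hbX hbY
      hb).mono (le_max_left _ _)

theorem Frame.close {U I V M Z : Set Cell} {c : Cell} (h : Frame U I V)
    (hI : ∀ x ∈ I, x = c ∨ x ∈ U) (hM : ∀ x ∈ U, x = c ∨ x ∈ M) (hcM : c ∉ M)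
    (hcZ : c ∈ Z) (hZ : ∀ x ∈ V, x ∈ Z ∨ x ∈ M) : Fact M Z := by
  obtain ⟨n, h⟩ := h
  refine ⟨n + 1, fun X Y hMX hXY hZY => ?_⟩
  -- Maker's move
  obtain ⟨m, hmX, hmY, hcm⟩ : ∃ m, m ∉ X ∧ m ∉ Y ∧ c ∈ insert m X := by
    by_cases hc : c ∈ X
    · obtain ⟨m, hm⟩ := Infinite.exists_notMem_finset (X ∪ Y)
      rw [Finset.mem_union, not_or] at hm
      exact ⟨m, hm.1, hm.2, Finset.mem_insert_of_mem hc⟩
    · exact ⟨c, hc, hZY c hcZ, Finset.mem_insert_self _ _⟩
  refine Or.inr ⟨m, hmX, hmY, fun b hb hb' => ?_⟩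
  have hUX : ∀ x ∈ U, x ∈ insert m X := by
    intro x hx
    rcases hM x hx with rfl | hxM
    · exact hcm
    · exact Finset.mem_insert_of_mem (hMX x hxM)
  apply h (insert m X) Y b hUX
  · rw [Finset.disjoint_insert_left]
    exact ⟨hmY, hXY⟩
  · intro x hx hxY
    rcases hZ x hx with hxZ | hxM
    · exact hZY x hxZ hxY
    · exact Finset.disjoint_left.1 hXY (hMX x hxM) hxY
  · exact hb
  · exact hb'
  · intro hbI
    apply hb
    rcases hI b hbI with rfl | hbU
    · exact hcm
    · exact hUX b hbU

theorem Fact.base {M Z : Set Cell} {C : Finset Cell} {c : Cell} (hC : IsCopy C)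
    (hM : ∀ x ∈ C, x = c ∨ x ∈ M) (hZ : c ∈ Z) : Fact M Z := by
  refine ⟨1, fun X Y hMX hXY hZY => ?_⟩
  by_cases hc : c ∈ X
  · left
    refine ⟨C, hC, fun x hx => ?_⟩
    rcases hM x hx with rfl | hxM
    · exact hc
    · exact hMX x hxM
  · right
    refine ⟨c, hc, hZY c hZ, fun b _ _ => ?_⟩
    refine ⟨C, hC, fun x hx => ?_⟩
    rcases hM x hx with rfl | hxM
    · exact Finset.mem_insert_self _ _
    · exact Finset.mem_insert_of_mem (hMX x hxM)

theorem Fact.image {M Z : Set Cell} (h : Fact M Z) {g : Cell ≃ Cell} (hg : IsSym g) :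
    Fact (g '' M) (g '' Z) := by
  obtain ⟨n, h⟩ := h
  refine ⟨n, fun X Y hMX hXY hZY => ?_⟩
  have h1 := h (X.image g.symm) (Y.image g.symm)
    (by
      intro c hc
      exact Finset.mem_image.2 ⟨g c, hMX _ ⟨c, hc, rfl⟩, by simp⟩)
    (by
      rw [Finset.disjoint_left]
      intro c hc hc'
      obtain ⟨x, hx, rfl⟩ := Finset.mem_image.1 hc
      obtain ⟨y, hy, hxy⟩ := Finset.mem_image.1 hc'
      have : y = x := g.symm.injective hxy
      subst this
      exact Finset.disjoint_left.1 hXY hx hy)
    (by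
      intro c hc hc'
      obtain ⟨y, hy, hyc⟩ := Finset.mem_image.1 hc'
      apply hZY (g c) ⟨c, hc, rfl⟩
      rw [← hyc]
      simpa using hy)
  have h2 := h1.image hg
  simpa [Finset.image_image] using h2

end Vale.Agent.P062
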